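import Vale.Agent.P028.Main

open MeasureTheory

theorem Vale.Agent.Results.P028.ErdosVaaler.result (γ : ℝ) (ψ : ℕ → ℝ) (h0 : ∀ q, 0 ≤ ψ q)
    (C : ℝ) (hC : ∀ q : ℕ, 0 < q → ψ q ≤ C / q)
    (hdiv : ¬ Summable fun q : ℕ => (q.totient : ℝ) / q * ψ q) :
    ∀ᵐ x : ℝ, {q : ℕ | 0 < q ∧ ∃ a : ℤ, |(q : ℝ) * x - a - γ| < ψ q}.Infinite :=
  Vale.Agent.P028.main γ ψ h0 C hC hdiv
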